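import Vale.Agent.P252.H189.WedgeBasics

/-! `Stmt_rescale`: rescaling of a wedge. -/

open scoped ContDiff Topology
open Filter MeasureTheory

namespace Vale.Agent.P252.H189

open Vale.Agent.P252.R

/-- The diagonal isomorphism with entries `d`. -/
noncomputable def diag {n : ℕ} (d : Fin n → ℝ) (hd : ∀ i, d i ≠ 0) : En n ≃L[ℝ] En n :=
  LinearEquiv.toContinuousLinearEquiv
    { toFun := fun x => WithLp.toLp 2 fun i => d i * x i
      map_add' := fun x y => by ext i; simp [mul_add]
      map_smul' := fun c x => by ext i; simp; ring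
      invFun := fun x => WithLp.toLp 2 fun i => (d i)⁻¹ * x i
      left_inv := fun x => by ext i; simp [hd i]
      right_inv := fun x => by ext i; simp [hd i] }

theorem diag_apply {n : ℕ} (d : Fin n → ℝ) (hd : ∀ i, d i ≠ 0) (x : En n) (i : Fin n) :
    diag d hd x i = d i * x i := rfl

/-- A linear isomorphism that fixes `e_i` for `i < k` fixes the vectors supported on these
coordinates. -/
theorem fix_of_supp {n k : ℕ} (T : En n ≃L[ℝ] En n)
    (hT : ∀ i : Fin n, i.val < k → T (EuclideanSpace.single i 1) = EuclideanSpace.single i 1)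
    {x : En n} (hx : ∀ i : Fin n, k ≤ i.val → x i = 0) : T x = x := by
  have h1 : x = ∑ i, x i • (EuclideanSpace.single i (1 : ℝ) : En n) := by
    ext j
    simp [Finset.sum_apply, Pi.single_apply]
  rw [h1, map_sum]
  refine Finset.sum_congr rfl fun i _ => ?_
  rw [map_smul]
  by_cases hi : i.val < k
  · rw [hT i hi]
  · rw [hx i (not_lt.mp hi), zero_smul, zero_smul]

theorem rescale (n k : ℕ) (hmax : Stmt_maxDet n k) (hpull : Stmt_admPull n) :
    Stmt_rescale n k := by
  intro K hK a az ha haz
  -- the `a`-part of the centre of the slice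
  set A : En n := WithLp.toLp 2 fun i => if i.val < k then a i else 0 with hA
  have hAlt : ∀ i : Fin n, i.val < k → A i = a i := fun i hi => by simp [hA, hi]
  have hAge : ∀ i : Fin n, k ≤ i.val → A i = 0 := fun i hi => by simp [hA, not_lt.mpr hi]
  set Y : Set (En n) := {y | (∀ i : Fin n, i.val < k → y i = 0) ∧ (A + y, az) ∈ K} with hY
  -- an upper bound of all scales
  obtain ⟨T₀, hT₀1, hT₀z, hT₀⟩ : ∃ T₀ : ℝ, 1 ≤ T₀ ∧ az ≤ T₀ ∧ ∀ i, a i ≤ T₀ := by
    refine ⟨1 + az + ∑ i, a i, ?_, ?_, fun i => ?_⟩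
    · have := Finset.sum_nonneg fun i (_ : i ∈ Finset.univ) => (ha i).le
      linarith
    · have := Finset.sum_nonneg fun i (_ : i ∈ Finset.univ) => (ha i).le
      linarith
    · have := Finset.single_le_sum (fun i (_ : i ∈ Finset.univ) => (ha i).le)
        (Finset.mem_univ i)
      linarith
  -- a lower bound of all scales
  obtain ⟨m, hm0, hm1, hmz, hma⟩ : ∃ m : ℝ, 0 < m ∧ m ≤ 1 ∧ m ≤ az ∧ ∀ i, m ≤ a i := by
    have hpos : ∀ i, 0 < (a i)⁻¹ := fun i => inv_pos.mpr (ha i)
    set s : ℝ := 1 + az⁻¹ + ∑ i, (a i)⁻¹ with hs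
    have hs0 : 0 ≤ ∑ i, (a i)⁻¹ := Finset.sum_nonneg fun i _ => (hpos i).le
    have haz' : 0 < az⁻¹ := inv_pos.mpr haz
    have hsp : 0 < s := by positivity
    refine ⟨s⁻¹, by positivity, inv_le_one_of_one_le₀ (by linarith), ?_, fun i => ?_⟩
    · rw [inv_le_comm₀ hsp haz]; linarith
    · rw [inv_le_comm₀ hsp (ha i)]
      have := Finset.single_le_sum (fun i (_ : i ∈ Finset.univ) => (hpos i).le)
        (Finset.mem_univ i)
      linarith
  have hYc : IsCompact Y := by
    rw [Metric.isCompact_iff_isClosed_bounded]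
    constructor
    · have h1 : Y = (⋂ i : Fin n, {y | i.val < k → y i = 0}) ∩ (fun y : En n => (A + y, az)) ⁻¹' K := by
        ext y; simp [hY]
      rw [h1]
      refine IsClosed.inter (isClosed_iInter fun i => ?_) (hK.closed.preimage (by fun_prop))
      by_cases hi : i.val < k
      · simp only [hi, true_imp_iff]
        exact isClosed_eq (by fun_prop) continuous_const
      · simp [hi]
    · refine (Metric.isBounded_iff_subset_closedBall (0 : En n)).mpr ⟨Real.sqrt (n * T₀ ^ 2), ?_⟩
      intro y hy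
      rw [mem_closedBall_zero_iff, EuclideanSpace.norm_eq]
      refine Real.sqrt_le_sqrt ?_
      have h2 : ∀ i : Fin n, ‖y i‖ ^ 2 ≤ T₀ ^ 2 := by
        intro i
        have h3 : |y i| ≤ T₀ := by
          by_cases hi : i.val < k
          · rw [hy.1 i hi, abs_zero]; linarith
          · have h4 := box_scaled hK hT₀1 hy.2 hT₀z (fun l hl => by
              simp only [PiLp.add_apply, hAlt l hl, hy.1 l hl, add_zero]; exact hT₀ l) i
              (not_lt.mp hi)
            simpa [hAge i (not_lt.mp hi)] using h4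
        rw [Real.norm_eq_abs]
        exact pow_le_pow_left₀ (abs_nonneg _) h3 2
      calc ∑ i, ‖y i‖ ^ 2 ≤ ∑ _i : Fin n, T₀ ^ 2 := Finset.sum_le_sum fun i _ => h2 i
        _ = n * T₀ ^ 2 := by simp
  have hYm : ∀ j : Fin n, k ≤ j.val → EuclideanSpace.single j m ∈ Y := by
    intro j hj
    refine ⟨fun i hi => ?_, ?_⟩
    · rw [PiLp.single_apply]
      have : i ≠ j := fun h => by subst h; omega
      simp [this]
    · have h1 := smul_mem hK (hK.simplex j hj) hm0.le hm1
      have h2 : ((A - m • ones n k, az - m) : En n × ℝ) ∈ Orth n k := by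
        refine ⟨by simpa using hmz, fun i hi => ?_, fun i hi => ?_⟩
        · simp [hAlt i hi, ones, hi, hma i]
        · simp [hAge i hi, ones, not_lt.mpr hi]
      have h3 := add_orth hK h1 h2
      convert h3 using 1
      ext i
      · simp; ring
      · simp
  obtain ⟨T0, hT0a, hT0b, hT0c, hT0d⟩ := hmax Y hYc (fun y hy => hy.1) ⟨m, hm0, hYm⟩
  have hfix : ∀ x : En n, (∀ i : Fin n, k ≤ i.val → x i = 0) → T0 x = x :=
    fun x hx => fix_of_supp T0 hT0b hx
  set d : Fin n → ℝ := fun i => if i.val < k then a i else 1 with hd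
  have hd0 : ∀ i, d i ≠ 0 := fun i => by
    simp only [hd]; split_ifs
    · exact (ha i).ne'
    · exact one_ne_zero
  set T : En n ≃L[ℝ] En n := (diag d hd0).trans T0 with hT
  have hTapp : ∀ x, T x = T0 (diag d hd0 x) := fun x => rfl
  have hTlt : ∀ x, ∀ i : Fin n, i.val < k → T x i = a i * x i := by
    intro x i hi
    rw [hTapp, hT0a _ i hi, diag_apply]
    simp [hd, hi]
  have hTsupp : ∀ x : En n, (∀ i : Fin n, k ≤ i.val → x i = 0) → T x = diag d hd0 x := by
    intro x hx
    rw [hTapp]
    refine hfix _ fun i hi => ?_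
    rw [diag_apply, hx i hi, mul_zero]
  have hTe : ∀ i : Fin n, i.val < k →
      T (EuclideanSpace.single i 1) = EuclideanSpace.single i (a i) := by
    intro i hi
    rw [hTsupp _ fun l hl => by
      rw [PiLp.single_apply, if_neg (fun h => by subst h; omega)]]
    ext l
    rw [diag_apply]
    by_cases hl : l = i
    · subst hl; simp [hd, hi]
    · simp [hl]
  have hTones : T (ones n k) = A := by
    rw [hTsupp _ fun l hl => by simp [ones, not_lt.mpr hl]]
    ext l
    rw [diag_apply]
    by_cases hl : l.val < k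
    · simp [ones, hd, hl, hAlt l hl]
    · simp [ones, hl, hAge l (not_lt.mp hl)]
  have hTj : ∀ j : Fin n, k ≤ j.val →
      T (EuclideanSpace.single j 1) = T0 (EuclideanSpace.single j 1) := by
    intro j hj
    rw [hTapp]
    congr 1
    ext l
    rw [diag_apply]
    by_cases hl : l = j
    · subst hl; simp [hd, not_lt.mpr hj]
    · simp [hl]
  refine ⟨T, hTlt, hTe, ?_⟩
  refine ⟨?_, ?_, ?_, ?_, ?_, ?_, ?_, ?_⟩
  · exact hK.closed.preimage (by fun_prop)
  · intro p hp q hq s t hs ht hst
    have h1 := hK.cvx hp hq hs ht hst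
    have h2 : ((T (s • p + t • q).1, az * (s • p + t • q).2) : En n × ℝ) =
        s • (T p.1, az * p.2) + t • (T q.1, az * q.2) := by
      ext i
      · simp
      · simp; ring
    change ((T (s • p + t • q).1, az * (s • p + t • q).2) : En n × ℝ) ∈ K
    rw [h2]; exact h1
  · have h1 := hpull K T 0 az⁻¹ 0 0 (inv_pos.mpr haz) hK.adm
    have h2 : pull T 0 az⁻¹ 0 0 K = {p | (T p.1, az * p.2) ∈ K} := by
      ext p
      simp only [pull, Set.mem_ofPred_eq, Pi.zero_apply, zero_mul, Finset.sum_const_zero, sub_zero,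
        add_zero, div_inv_eq_mul]
      rw [mul_comm p.2 az]
    rwa [h2] at h1
  · intro p hp
    have h1 := hK.nonneg_z _ hp
    exact nonneg_of_mul_nonneg_right h1 haz
  · intro p hp i hi
    have h1 := hK.nonneg _ hp i hi
    simp only [hTlt p.1 i hi] at h1
    exact nonneg_of_mul_nonneg_right h1 (ha i)
  · intro p h2 h1 h0
    refine hK.orth _ (mul_nonneg haz.le h2) (fun i hi => ?_) (fun i hi => ?_)
    · simp only [hTlt p.1 i hi]
      exact mul_nonneg (ha i).le (h1 i hi)
    · simp only [hTsupp p.1 h0, diag_apply, h0 i hi, mul_zero]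
  · intro j hj
    change ((T (ones n k + EuclideanSpace.single j 1), az * 1) : En n × ℝ) ∈ K
    rw [map_add, hTones, hTj j hj, mul_one]
    exact (hT0c j hj).2
  · intro p hp h2 h1 j hj
    set B : En n := WithLp.toLp 2 fun i => if i.val < k then 1 - p.1 i else 0 with hB
    have hBlt : ∀ i : Fin n, i.val < k → B i = 1 - p.1 i := fun i hi => by simp [hB, hi]
    have hBge : ∀ i : Fin n, k ≤ i.val → B i = 0 := fun i hi => by simp [hB, not_lt.mpr hi]
    have h3 : ((T B, az * (1 - p.2)) : En n × ℝ) ∈ Orth n k := by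
      refine ⟨mul_nonneg haz.le (by linarith), fun i hi => ?_, fun i hi => ?_⟩
      · simp only [hTlt B i hi, hBlt i hi]
        exact mul_nonneg (ha i).le (by linarith [h1 i hi])
      · simp only [hTsupp B hBge, diag_apply, hBge i hi, mul_zero]
    have h4 := add_orth hK hp h3
    have h5 : ((T p.1, az * p.2) : En n × ℝ) + (T B, az * (1 - p.2)) = (T (p.1 + B), az) := by
      ext i
      · simp
      · simp; ring
    rw [h5] at h4
    set y : En n := T (p.1 + B) - A with hy
    have hyY : y ∈ Y := by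
      refine ⟨fun i hi => ?_, ?_⟩
      · rw [hy, PiLp.sub_apply, hTlt _ i hi, PiLp.add_apply, hBlt i hi, hAlt i hi]
        ring
      · rw [hy, add_sub_cancel]; exact h4
    have h6 := hT0d y hyY j
    have h7 : T0.symm y = diag d hd0 (p.1 + B) - A := by
      rw [hy, map_sub, hTapp, ContinuousLinearEquiv.symm_apply_apply]
      congr 1
      rw [ContinuousLinearEquiv.symm_apply_eq]
      exact (hfix A hAge).symm
    rw [h7, PiLp.sub_apply, diag_apply, PiLp.add_apply, hBge j hj, hAge j hj] at h6
    simpa [hd, not_lt.mpr hj] using h6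

end Vale.Agent.P252.H189
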