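import Vale.Agent.P252.H189.WedgeBasics

/-! `Stmt_ulimWedge`: wedges are closed under ultralimits. -/

open scoped ContDiff Topology
open Filter MeasureTheory

namespace Vale.Agent.P252.H189

open Vale.Agent.P252.R

theorem isClosed_ulim {V : Type*} [NormedAddCommGroup V] (K : ℕ → Set V) : IsClosed (ulim K) := by
  rw [← closure_subset_iff_isClosed]
  intro p hp ε hε
  obtain ⟨p', hp', hd⟩ := Metric.mem_closure_iff.mp hp (ε / 2) (by positivity)
  filter_upwards [hp' (ε / 2) (by positivity)] with j hj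
  obtain ⟨q, hq, hqd⟩ := hj
  refine ⟨q, hq, ?_⟩
  have h1 : ‖p - q‖ ≤ ‖p - p'‖ + ‖p' - q‖ := norm_sub_le_norm_sub_add_norm_sub p p' q
  rw [dist_eq_norm] at hd
  linarith

theorem convex_ulim {V : Type*} [NormedAddCommGroup V] [NormedSpace ℝ V] (K : ℕ → Set V)
    (hK : ∀ j, Convex ℝ (K j)) : Convex ℝ (ulim K) := by
  intro p hp p' hp' a b ha hb hab ε hε
  filter_upwards [hp ε hε, hp' ε hε] with j hj hj'
  obtain ⟨q, hq, hqd⟩ := hj
  obtain ⟨q', hq', hqd'⟩ := hj'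
  refine ⟨a • q + b • q', hK j hq hq' ha hb hab, ?_⟩
  have h1 : a • p + b • p' - (a • q + b • q') = a • (p - q) + b • (p' - q') := by
    simp only [smul_sub]; abel
  rw [h1]
  calc ‖a • (p - q) + b • (p' - q')‖ ≤ ‖a • (p - q)‖ + ‖b • (p' - q')‖ := norm_add_le _ _
    _ = a * ‖p - q‖ + b * ‖p' - q'‖ := by
        rw [norm_smul, norm_smul, Real.norm_of_nonneg ha, Real.norm_of_nonneg hb]
    _ ≤ a * ε + b * ε := by gcongr
    _ = ε := by rw [← add_mul, hab, one_mul]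

theorem mem_ulim_of_forall {V : Type*} [SeminormedAddCommGroup V] {K : ℕ → Set V} {p : V}
    (h : ∀ j, p ∈ K j) : p ∈ ulim K := by
  intro ε hε
  exact Filter.Eventually.of_forall fun j => ⟨p, h j, by simpa using hε.le⟩

/-- A point of the ultralimit is approximated by some point of some `K j`. -/
theorem exists_near {V : Type*} [SeminormedAddCommGroup V] {K : ℕ → Set V} {p : V}
    (h : p ∈ ulim K) {ε : ℝ} (hε : 0 < ε) : ∃ j, ∃ q ∈ K j, ‖p - q‖ ≤ ε :=
  (h ε hε).exists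

theorem abs_coord_le {n : ℕ} (p q : En n × ℝ) (i : Fin n) : |p.1 i - q.1 i| ≤ ‖p - q‖ := by
  have h1 : ‖(p.1 - q.1) i‖ ≤ ‖p.1 - q.1‖ := PiLp.norm_apply_le (p.1 - q.1) i
  have h2 : ‖p.1 - q.1‖ ≤ ‖p - q‖ := norm_fst_le (p - q)
  rw [Real.norm_eq_abs] at h1
  simpa using h1.trans h2

theorem abs_snd_le {n : ℕ} (p q : En n × ℝ) : |p.2 - q.2| ≤ ‖p - q‖ := by
  have h2 : ‖p.2 - q.2‖ ≤ ‖p - q‖ := norm_snd_le (p - q)
  rwa [Real.norm_eq_abs] at h2

theorem ulimWedge (n k : ℕ) (hadm : Stmt_ulimAdm n) : Stmt_ulimWedge n k := by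
  intro K hK
  have hnear : ∀ p ∈ ulim K, ∀ ε : ℝ, 0 < ε → ∃ j, ∃ q ∈ K j,
      (|p.2 - q.2| ≤ ε) ∧ ∀ i, |p.1 i - q.1 i| ≤ ε := by
    intro p hp ε hε
    obtain ⟨j, q, hq, hd⟩ := exists_near hp hε
    exact ⟨j, q, hq, (abs_snd_le p q).trans hd, fun i => (abs_coord_le p q i).trans hd⟩
  refine ⟨isClosed_ulim K, convex_ulim K fun j => (hK j).cvx, hadm K fun j => (hK j).adm,
    ?_, ?_, ?_, ?_, ?_⟩
  · intro p hp
    refine le_of_forall_pos_le_add fun ε hε => ?_
    obtain ⟨j, q, hq, h2, -⟩ := hnear p hp ε hε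
    have := (hK j).nonneg_z q hq
    linarith [(abs_le.mp h2).1]
  · intro p hp i hi
    refine le_of_forall_pos_le_add fun ε hε => ?_
    obtain ⟨j, q, hq, -, h1⟩ := hnear p hp ε hε
    have := (hK j).nonneg q hq i hi
    linarith [(abs_le.mp (h1 i)).1]
  · intro p h2 h1 h0
    exact mem_ulim_of_forall fun j => (hK j).orth p h2 h1 h0
  · intro j hj
    exact mem_ulim_of_forall fun l => (hK l).simplex j hj
  · intro p hp h2 h1 j hj
    refine le_of_forall_pos_le_add fun ε hε => ?_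
    obtain ⟨l, q, hq, h2', h1'⟩ := hnear p hp (ε / 2) (by positivity)
    have hb := box_scaled (hK l) (T := 1 + ε / 2) (by linarith) hq
      (by linarith [(abs_le.mp h2').1])
      (fun i hi => by linarith [(abs_le.mp (h1' i)).1, h1 i hi]) j hj
    have h3 : |p.1 j| ≤ |p.1 j - q.1 j| + |q.1 j| := by
      have := abs_add_le (p.1 j - q.1 j) (q.1 j)
      simpa using this
    linarith [h1' j]

end Vale.Agent.P252.H189
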