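import Vale.Agent.P252.R.Spec

/-! Basic facts on wedges: recession cone, scaling towards the vertex, the scaled box. -/

open scoped ContDiff Topology
open Filter MeasureTheory

namespace Vale.Agent.P252.H189

open Vale.Agent.P252.R

/-- In a closed convex set, a direction `q` all of whose nonnegative multiples lie in the set may
be added to every point. -/
theorem add_mem_of_ray {V : Type*} [NormedAddCommGroup V] [NormedSpace ℝ V] {K : Set V}
    (hc : IsClosed K) (hv : Convex ℝ K) {p q : V} (hp : p ∈ K)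
    (hq : ∀ t : ℝ, 0 ≤ t → t • q ∈ K) : p + q ∈ K := by
  have h1 : ∀ s : ℝ, 0 < s → s ≤ 1 → (1 - s) • p + q ∈ K := by
    intro s hs hs1
    have h2 := hv hp (hq s⁻¹ (by positivity)) (a := 1 - s) (b := s) (by linarith) hs.le (by ring)
    rwa [smul_smul, mul_inv_cancel₀ hs.ne', one_smul] at h2
  have h3 : Tendsto (fun s : ℝ => (1 - s) • p + q) (𝓝[>] 0) (𝓝 ((1 - (0 : ℝ)) • p + q)) := by
    apply tendsto_nhdsWithin_of_tendsto_nhds
    exact Continuous.tendsto (by fun_prop) 0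
  rw [sub_zero, one_smul] at h3
  refine hc.mem_of_tendsto h3 ?_
  filter_upwards [Ioo_mem_nhdsGT (zero_lt_one' ℝ)] with s hs
  exact h1 s hs.1 hs.2.le

/-- The orthant spanned by the arms. -/
def Orth (n k : ℕ) : Set (En n × ℝ) :=
  {p | 0 ≤ p.2 ∧ (∀ i : Fin n, i.val < k → 0 ≤ p.1 i) ∧ ∀ i : Fin n, k ≤ i.val → p.1 i = 0}

theorem Orth.smul {n k : ℕ} {p : En n × ℝ} (hp : p ∈ Orth n k) {t : ℝ} (ht : 0 ≤ t) :
    t • p ∈ Orth n k := by
  obtain ⟨h1, h2, h3⟩ := hp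
  refine ⟨by simpa using mul_nonneg ht h1, fun i hi => ?_, fun i hi => ?_⟩
  · simpa using mul_nonneg ht (h2 i hi)
  · simp [h3 i hi]

theorem Orth.add {n k : ℕ} {p q : En n × ℝ} (hp : p ∈ Orth n k) (hq : q ∈ Orth n k) :
    p + q ∈ Orth n k := by
  obtain ⟨h1, h2, h3⟩ := hp
  obtain ⟨h1', h2', h3'⟩ := hq
  refine ⟨by simpa using add_nonneg h1 h1', fun i hi => ?_, fun i hi => ?_⟩
  · simpa using add_nonneg (h2 i hi) (h2' i hi)
  · simp [h3 i hi, h3' i hi]

section Wedge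

variable {n k : ℕ} {K : Set (En n × ℝ)}

theorem orth_mem (hK : Wedge n k K) {p : En n × ℝ} (hp : p ∈ Orth n k) : p ∈ K :=
  hK.orth p hp.1 hp.2.1 hp.2.2

theorem zero_mem (hK : Wedge n k K) : (0 : En n × ℝ) ∈ K :=
  hK.orth 0 (by simp) (by simp) (by simp)

theorem add_orth (hK : Wedge n k K) {p q : En n × ℝ} (hp : p ∈ K) (hq : q ∈ Orth n k) :
    p + q ∈ K :=
  add_mem_of_ray hK.closed hK.cvx hp fun _ ht => orth_mem hK (Orth.smul hq ht)

theorem smul_mem (hK : Wedge n k K) {p : En n × ℝ} (hp : p ∈ K) {s : ℝ} (h0 : 0 ≤ s)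
    (h1 : s ≤ 1) : s • p ∈ K := by
  have h := hK.cvx hp (zero_mem hK) (a := s) (b := 1 - s) h0 (by linarith) (by ring)
  simpa using h

/-- The box condition at every scale `T ≥ 1`. -/
theorem box_scaled (hK : Wedge n k K) {T : ℝ} (hT : 1 ≤ T) {p : En n × ℝ} (hp : p ∈ K)
    (h2 : p.2 ≤ T) (h1 : ∀ i : Fin n, i.val < k → p.1 i ≤ T) (j : Fin n) (hj : k ≤ j.val) :
    |p.1 j| ≤ T := by
  have hT0 : 0 < T := by linarith
  have hm : T⁻¹ • p ∈ K := smul_mem hK hp (by positivity) (inv_le_one_of_one_le₀ hT)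
  have hb := hK.box _ hm ?_ ?_ j hj
  · have h3 : (T⁻¹ • p).1 j = T⁻¹ * p.1 j := by simp
    rw [h3, abs_mul, abs_of_pos (inv_pos.mpr hT0)] at hb
    rw [inv_mul_le_iff₀ hT0] at hb
    simpa using hb
  · have h3 : (T⁻¹ • p).2 = T⁻¹ * p.2 := by simp
    rw [h3, inv_mul_le_iff₀ hT0]
    simpa using h2
  · intro i hi
    have h3 : (T⁻¹ • p).1 i = T⁻¹ * p.1 i := by simp
    rw [h3, inv_mul_le_iff₀ hT0]
    simpa using h1 i hi

/-- The norm bound of the points of a wedge with bounded arm coordinates. -/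
theorem abs_le_of_le (hK : Wedge n k K) {T : ℝ} (hT : 1 ≤ T) {p : En n × ℝ} (hp : p ∈ K)
    (h2 : p.2 ≤ T) (h1 : ∀ i : Fin n, i.val < k → p.1 i ≤ T) (j : Fin n) : |p.1 j| ≤ T := by
  by_cases hj : j.val < k
  · rw [abs_of_nonneg (hK.nonneg p hp j hj)]
    exact h1 j hj
  · exact box_scaled hK hT hp h2 h1 j (not_lt.mp hj)

end Wedge

end Vale.Agent.P252.H189
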